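import Vale.Agent.P072.Net
import Vale.Agent.P072.All

/-!
P072: the permanence conjecture for weakly reversible mass-action systems.
-/

namespace Vale.Agent.Results.P072.PermanenceConjecture

open _root_.P072

/-- Every weakly reversible mass-action system with positive rate constants is permanent on every
positive stoichiometric class. -/
theorem result (d : ℕ) (net : Network d) (k : (Fin d → ℕ) × (Fin d → ℕ) → ℝ)
    (hwr : net.WeaklyReversible) (hk : ∀ r ∈ net.reactions, 0 < k r)
    (c : Fin d → ℝ) (hc : ∀ i, 0 < c i) :
    PermanentOn (net.massAction k) (net.posClass c) :=
  main d net k hwr hk c hc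

end Vale.Agent.Results.P072.PermanenceConjecture
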