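import Vale.Agent.P072.Net
import Vale.Agent.P072.NetVar
import Vale.Agent.P072.All

/-!
P072: the permanence conjecture for weakly reversible mass-action systems, for constant rates and
in the stronger form with measurable time-dependent rates.
-/

namespace Vale.Agent.Results.P072.PermanenceVarRates

open _root_.P072

/-- (1) Every weakly reversible mass-action system with positive constant rates is permanent on
every positive stoichiometric class.  (2) For every `ε > 0` the weakly reversible mass-action
systems with measurable time-dependent rates with values in `[ε, 1/ε]` are permanent on every
positive stoichiometric class, uniformly in the rate functions. -/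
theorem result :
    (∀ (d : ℕ) (net : Network d) (k : (Fin d → ℕ) × (Fin d → ℕ) → ℝ),
      net.WeaklyReversible → (∀ r ∈ net.reactions, 0 < k r) →
      ∀ c : Fin d → ℝ, (∀ i, 0 < c i) → PermanentOn (net.massAction k) (net.posClass c)) ∧
    (∀ (d : ℕ) (net : Network d) (ε : ℝ), net.WeaklyReversible → 0 < ε →
      ∀ c : Fin d → ℝ, (∀ i, 0 < c i) → PermanentOn2 net ε (net.posClass c)) :=
  ⟨main, main2⟩

end Vale.Agent.Results.P072.PermanenceVarRates
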